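import Mathlib

/-! Every group is the fundamental group of a space with a contractible cover. -/

namespace Vale.Agent.P246

open Set unitInterval MeasureTheory Topology

/-- functions on the interval -/
def HM (Γ : Type) : Type := I → Γ

noncomputable instance HM.em (Γ : Type) : PseudoEMetricSpace (HM Γ) where
  edist f g := volume {t : I | f t ≠ g t}
  edist_self f := by simp
  edist_comm f g := by simp only [ne_comm]
  edist_triangle f g k := by
    refine le_trans (measure_mono fun t ht => ?_) (measure_union_le _ _)
    by_contra h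
    simp only [mem_union, mem_ofPred_eq, not_or, not_not] at h
    exact ht (h.1.trans h.2)

theorem HM.edist_def {Γ : Type} (f g : HM Γ) : edist f g = volume {t : I | f t ≠ g t} := rfl

instance HM.act (Γ : Type) [Group Γ] : MulAction Γ (HM Γ) where
  smul g f := fun t => g * f t
  one_smul f := funext fun t => one_mul (f t)
  mul_smul g g' f := funext fun t => mul_assoc g g' (f t)

theorem HM.smul_apply {Γ : Type} [Group Γ] (g : Γ) (f : HM Γ) (t : I) : (g • f) t = g * f t := rfl

instance HM.cont (Γ : Type) [Group Γ] : ContinuousConstSMul Γ (HM Γ) where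
  continuous_const_smul g := Isometry.continuous fun f f' => by
    simp only [HM.edist_def, HM.smul_apply, ne_eq, mul_right_inj]

theorem HM.contr (Γ : Type) [Group Γ] : ContractibleSpace (HM Γ) := by
  classical
  let H : I × HM Γ → HM Γ := fun q t => if t < q.1 ∨ q.1 = 1 then 1 else q.2 t
  have hH : LipschitzWith 2 H := by
    intro q q'
    have h1 : edist (H q) (H q') ≤ edist q.2 q'.2 + edist q.1 q'.1 := by
      rw [HM.edist_def, HM.edist_def, ← volume_uIcc]
      refine le_trans (measure_mono fun t ht => ?_) (measure_union_le _ _)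
      by_contra h
      simp only [mem_union, mem_ofPred_eq, not_or, not_not, mem_uIcc, not_and_or, not_le] at h
      apply ht
      have t1 : t ≤ 1 := le_one'
      simp only [H]
      rcases h.2 with ⟨h2 | h2, h3 | h3⟩
      · rw [if_pos (Or.inl h3), if_pos (Or.inl h2)]
      · exact absurd (h2.trans h3) (lt_irrefl _)
      · exact absurd (h2.trans h3) (lt_irrefl _)
      · rw [if_neg, if_neg, h.1]
        · rintro (k | k)
          · exact lt_asymm k h3
          · exact (k ▸ h3).not_ge t1
        · rintro (k | k)
          · exact lt_asymm k h2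
          · exact (k ▸ h2).not_ge t1
    refine h1.trans ?_
    rw [Prod.edist_eq]
    push_cast
    rw [two_mul]
    exact add_le_add (le_max_right _ _) (le_max_left _ _)
  refine (contractible_iff_id_nullhomotopic _).2
    ⟨fun _ => 1, ⟨⟨⟨H, hH.continuous⟩, fun f => funext fun t => ?_, fun f => funext fun t => ?_⟩⟩⟩
  · exact if_neg (by
      rintro (k | k)
      · exact k.not_ge nonneg'
      · exact zero_ne_one k)
  · exact if_pos (Or.inr rfl)

theorem HM.cov (Γ : Type) [Group Γ] :
    IsQuotientCoveringMap (Quotient.mk (MulAction.orbitRel Γ (HM Γ))) Γ where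
  toIsQuotientMap := isQuotientMap_quotient_mk'
  toContinuousConstSMul := inferInstance
  apply_eq_iff_mem_orbit := Quotient.eq.trans MulAction.orbitRel_apply
  disjoint e := by
    refine ⟨Metric.eball e (1 / 2), Metric.eball_mem_nhds _ (by norm_num), ?_⟩
    rintro g ⟨_, ⟨a, ha, rfl⟩, hb⟩
    by_contra hg
    have h1 : edist (g • a) a = 1 := by
      rw [HM.edist_def]
      simp [HM.smul_apply, hg]
    have h2 : edist (g • a) a < 1 / 2 + 1 / 2 :=
      (edist_triangle_right _ _ e).trans_lt (ENNReal.add_lt_add hb ha)
    rw [h1, ENNReal.add_halves] at h2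
    exact lt_irrefl _ h2

theorem exists_model (Γ : Type) [Group Γ] :
    ∃ (X E : Type) (_ : TopologicalSpace X) (_ : TopologicalSpace E) (p : E → X) (x : X),
      ContractibleSpace E ∧ IsCoveringMap p ∧ Function.Surjective p ∧
        Nonempty (FundamentalGroup X x ≃* Γ) := by
  have := HM.contr Γ
  exact ⟨_, HM Γ, _, _, Quotient.mk (MulAction.orbitRel Γ (HM Γ)), Quotient.mk _ (fun _ => 1), this,
    (HM.cov Γ).isCoveringMap, Quotient.mk_surjective,
    ⟨((HM.cov Γ).fundamentalGroupEquiv ⟨fun _ => 1, rfl⟩).trans (MulEquiv.inv' Γ).symm⟩⟩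

end Vale.Agent.P246
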