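import Mathlib

/-! Contractible covers pull back along homotopy equivalences. -/

namespace Vale.Agent.P246

open Set unitInterval ContinuousMap

variable {X Y E : Type*} [TopologicalSpace X] [TopologicalSpace Y] [TopologicalSpace E]

theorem pull_cov {p : E → X} (hp : IsCoveringMap p) {h : Y → X} (hh : Continuous h) :
    IsCoveringMap fun z : {z : Y × E // h z.1 = p z.2} => z.1.1 := by
  intro y
  obtain ⟨hd, U, hyU, hU, -, H, hH⟩ := hp (h y)
  have hq : Continuous fun z : {z : Y × E // h z.1 = p z.2} => z.1.1 := by fun_prop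
  refine (show IsEvenlyCovered _ y (p ⁻¹' {h y}) from
    ⟨hd, h ⁻¹' U, hyU, hU.preimage hh, (hU.preimage hh).preimage hq, ?_⟩).to_isEvenlyCovered_preimage
  have hmem : ∀ z : (fun z : {z : Y × E // h z.1 = p z.2} => z.1.1) ⁻¹' (h ⁻¹' U),
      z.1.1.2 ∈ p ⁻¹' U := fun z => by
    have h1 : h z.1.1.1 ∈ U := z.2
    rw [z.1.2] at h1
    exact h1
  have hs : ∀ w : U × (p ⁻¹' {h y}), p (H.symm w).1 = w.1.1 := fun w => by
    rw [← hH, H.apply_symm_apply]
  refine ⟨{
    toFun := fun z => (⟨z.1.1.1, z.2⟩, (H ⟨z.1.1.2, hmem z⟩).2)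
    invFun := fun w => ⟨⟨(w.1.1, (H.symm (⟨h w.1.1, w.1.2⟩, w.2)).1), (hs (⟨h w.1.1, w.1.2⟩, w.2)).symm⟩, w.1.2⟩
    left_inv := fun z => ?_
    right_inv := fun w => ?_
    continuous_toFun := ?_
    continuous_invFun := ?_ }, fun _ => rfl⟩
  · refine Subtype.ext (Subtype.ext (Prod.ext rfl ?_))
    have e : ((⟨h z.1.1.1, z.2⟩ : U), (H ⟨z.1.1.2, hmem z⟩).2) = H ⟨z.1.1.2, hmem z⟩ :=
      Prod.ext (Subtype.ext (z.1.2.trans (hH ⟨z.1.1.2, hmem z⟩).symm)) rfl
    exact (congrArg (fun w => (H.symm w).1) e).trans (by simp)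
  · refine Prod.ext rfl ?_
    have e := congrArg Prod.snd (H.apply_symm_apply (⟨h w.1.1, w.1.2⟩, w.2))
    exact e
  · fun_prop
  · refine Continuous.subtype_mk (Continuous.subtype_mk (Continuous.prodMk (by fun_prop) ?_) _) _
    refine continuous_subtype_val.comp (H.symm.continuous.comp
      (Continuous.prodMk (Continuous.subtype_mk (by fun_prop) _) continuous_snd))

theorem lift_htpy {A : Type*} [TopologicalSpace A] {q : E → Y} (hq : IsCoveringMap q)
    (f : C(A, E)) {g g' : C(A, Y)} (hg : ∀ a, g a = q (f a)) (B : g.Homotopy g') :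
    ∃ L : C(I × A, E), (∀ a, L (0, a) = f a) ∧ ∀ t a, q (L (t, a)) = B (t, a) := by
  have h0 : ∀ a, B.toContinuousMap (0, a) = q (f a) := fun a => (B.apply_zero a).trans (hg a)
  exact ⟨hq.liftHomotopy B.toContinuousMap f h0, hq.liftHomotopy_zero _ _ h0,
    fun t a => congrFun (hq.liftHomotopy_lifts _ _ h0) (t, a)⟩

theorem pull_contr [ContractibleSpace E] {p : E → X} (hp : IsCoveringMap p) (F : Y ≃ₕ X) :
    ContractibleSpace {z : Y × E // F.toFun z.1 = p z.2} := by
  have hq := pull_cov hp F.toFun.continuous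
  obtain ⟨e0, he0⟩ := id_nullhomotopic E
  let pc : C(E, X) := ⟨p, hp.continuous⟩
  let qc : C({z : Y × E // F.toFun z.1 = p z.2}, Y) := ⟨fun z => z.1.1, hq.continuous⟩
  let rc : C({z : Y × E // F.toFun z.1 = p z.2}, E) := ⟨fun z => z.1.2, by fun_prop⟩
  have h1 : qc.Homotopic ((F.invFun.comp F.toFun).comp qc) :=
    (F.left_inv.symm.comp (Homotopic.refl qc) :)
  have h2 : (F.invFun.comp F.toFun).comp qc = (F.invFun.comp pc).comp rc :=
    ContinuousMap.ext fun z => congrArg F.invFun z.2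
  have h3 : ((F.invFun.comp pc).comp rc).Homotopic (ContinuousMap.const _ (F.invFun (p e0))) :=
    ((Homotopic.refl (F.invFun.comp pc)).comp (he0.comp (Homotopic.refl rc)) :)
  obtain ⟨K⟩ := F.right_inv.symm
  obtain ⟨L, hL0, hL⟩ := lift_htpy hp (ContinuousMap.id E) (g := (ContinuousMap.id X).comp pc)
    (fun _ => rfl) (K.comp (ContinuousMap.Homotopy.refl pc))
  replace hL : ∀ t e, p (L (t, e)) = K (t, p e) := hL
  let s : E → {z : Y × E // F.toFun z.1 = p z.2} := fun e =>
    ⟨(F.invFun (p e), L (1, e)), ((hL 1 e).trans (K.apply_one _)).symm⟩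
  have hs : Continuous s :=
    Continuous.subtype_mk ((F.invFun.continuous.comp hp.continuous).prodMk (by fun_prop)) _
  have hsurj : ∀ (z : {z : Y × E // F.toFun z.1 = p z.2}) (x : X), z.1.1 = F.invFun x →
      ∃ e, s e = z := by
    intro z x hz
    let γ : C(I, X) := ⟨fun t => K (σ t, x), by fun_prop⟩
    have hγ : γ 0 = p z.1.2 := by
      show K (σ 0, x) = _
      rw [symm_zero, K.apply_one, ← z.2, hz]
      rfl
    have hl : ∀ t, p (hp.liftPath γ _ hγ t) = K (σ t, x) :=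
      congrFun (hp.liftPath_lifts γ _ hγ)
    have hx : p (hp.liftPath γ _ hγ 1) = x := by
      rw [hl, symm_one, K.apply_zero]
      rfl
    have e := hp.eq_of_comp_eq (g₁ := fun t : I => L (t, hp.liftPath γ _ hγ 1))
      (g₂ := fun t : I => hp.liftPath γ _ hγ (σ t)) (by fun_prop) (by fun_prop)
      (funext fun t => by
        show p (L (t, _)) = p (hp.liftPath γ _ hγ (σ t))
        rw [hL, hx, hl, symm_symm]) 0 (by
        show L (0, _) = hp.liftPath γ _ hγ (σ 0)
        rw [hL0, symm_zero]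
        rfl)
    refine ⟨hp.liftPath γ _ hγ 1, Subtype.ext (Prod.ext ?_ ?_)⟩
    · show F.invFun (p _) = _
      rw [hx, hz]
    · have e1 := congrFun e 1
      simp only [symm_one] at e1
      exact e1.trans (hp.liftPath_zero γ _ hγ)
  obtain ⟨B1⟩ := h1
  obtain ⟨L1, hL10, hL1⟩ := lift_htpy hq (ContinuousMap.id _) (g := qc) (fun _ => rfl) B1
  have hj : ∀ z, Joined z (s e0) := by
    intro z
    obtain ⟨e, he⟩ := hsurj (L1 (1, z)) (F.toFun z.1.1) ((hL1 1 z).trans (B1.apply_one z))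
    have j1 : Joined z (s e) :=
      ⟨⟨⟨fun t => L1 (t, z), by fun_prop⟩, hL10 z, he.symm⟩⟩
    exact j1.trans ⟨(PathConnectedSpace.somePath e e0).map hs⟩
  have : PathConnectedSpace {z : Y × E // F.toFun z.1 = p z.2} :=
    ⟨⟨s e0⟩, fun z z' => (hj z).trans (hj z').symm⟩
  obtain ⟨B2⟩ := (Homotopic.trans ⟨B1⟩ (h2 ▸ h3) : qc.Homotopic _)
  obtain ⟨L2, hL20, hL2⟩ := lift_htpy hq (ContinuousMap.id _) (g := qc) (fun _ => rfl) B2
  refine (contractible_iff_id_nullhomotopic _).2 ⟨L2 (1, s e0), ⟨⟨L2, hL20, fun z => ?_⟩⟩⟩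
  exact hq.const_of_comp (g := fun z => L2 (1, z)) (by fun_prop)
    (fun a a' => ((hL2 1 a).trans (B2.apply_one a)).trans
      ((hL2 1 a').trans (B2.apply_one a')).symm) z (s e0)

theorem pi1_equiv [PathConnectedSpace X] (F : Y ≃ₕ X) (y : Y) (x : X) :
    Nonempty (FundamentalGroup Y y ≃* FundamentalGroup X x) := by
  have e := (FundamentalGroupoidFunctor.equivOfHomotopyEquiv F).fullyFaithfulFunctor
  have e2 : FundamentalGroup Y y ≃* FundamentalGroup X
      ((FundamentalGroupoidFunctor.equivOfHomotopyEquiv F).functor.obj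
        (FundamentalGroupoid.mk y)).as := e.mulEquivEnd _
  exact ⟨e2.trans (FundamentalGroup.fundamentalGroupMulEquivOfPathConnected _ x)⟩

end Vale.Agent.P246
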